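import Vale.Agent.Lib.P150.SKHalf

open Vale.Agent.Lib.P150
open MeasureTheory ProbabilityTheory Filter
open scoped Topology

/-- For fixed `0 ≤ β < 1/2` and `ε > 0`, with probability tending to one, the zero-field
Sherrington-Kirkpatrick heat-bath dynamics has spectral gap between `1 - 2 β - ε` and `1` and mixing
time between `(1/3) log n - C` and `C log n`. -/
theorem Vale.Agent.Results.P150.A_SK_half.result (β : ℝ) (hβ0 : 0 ≤ β) (hβ : β < 1 / 2)
    (ε : ℝ) (hε : 0 < ε) :
    ∃ C : ℝ, 0 < C ∧
      Tendsto (fun n : ℕ =>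
        (Measure.pi (fun _ : {p : Fin n × Fin n // p.1 < p.2} => gaussianReal 0 1))
          {g | ¬ (1 - 2 * β - ε ≤ spectralGap (skCoupling β g) ∧ spectralGap (skCoupling β g) ≤ 1 ∧
            (1 / 3) * Real.log n - C ≤ mixingTime (skCoupling β g) ∧
            mixingTime (skCoupling β g) ≤ C * Real.log n)})
        atTop (𝓝 0) :=
  sk_half hβ0 hβ hε
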