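import Vale.Agent.Lib.P150.SKMain

open Vale.Agent.Lib.P150
open MeasureTheory ProbabilityTheory Filter
open scoped Topology

/-- For fixed `0 ≤ β < (√3 - 1)/2`, with probability tending to one, the zero-field
Sherrington-Kirkpatrick heat-bath dynamics has spectral gap between `c` and `1` and mixing time
between `(1/2) log n - C` and `C log n`. -/
theorem Vale.Agent.Results.P150.A_SK_whp.result (β : ℝ) (hβ0 : 0 ≤ β)
    (hβ : β < (Real.sqrt 3 - 1) / 2) :
    ∃ c C : ℝ, 0 < c ∧ 0 < C ∧
      Tendsto (fun n : ℕ =>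
        (Measure.pi (fun _ : {p : Fin n × Fin n // p.1 < p.2} => gaussianReal 0 1))
          {g | ¬ (c ≤ spectralGap (skCoupling β g) ∧ spectralGap (skCoupling β g) ≤ 1 ∧
            (1 / 2) * Real.log n - C ≤ mixingTime (skCoupling β g) ∧
            mixingTime (skCoupling β g) ≤ C * Real.log n)})
        atTop (𝓝 0) :=
  sk_whp hβ0 hβ
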