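import Vale.Agent.Lib.P150.Main

open Vale.Agent.Lib.P150

/-- Deterministic theorem for heat-bath dynamics of a zero-field Ising model. -/
theorem Vale.Agent.Results.P150.B_deterministic.result
    {ι : Type*} [Fintype ι] [DecidableEq ι] [Nonempty ι]
    (J : ι → ι → ℝ) (hsym : ∀ i j, J i j = J j i) (hdiag : ∀ i, J i i = 0)
    {ρ r2 : ℝ} (hρ0 : 0 ≤ ρ)
    (hρ : ∀ v : ι → ℝ, ∑ i, (∑ j, J i j * v j) ^ 2 ≤ ρ ^ 2 * ∑ i, v i ^ 2)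
    (hr : ∀ j, ∑ i, J i j ^ 2 ≤ r2) (hη : ∀ i j, |J i j| ≤ 1 / 200)
    {κ : ℝ} (hκdef : κ = 1 - ρ - 2 * r2) (hκ : 0 < κ) :
    κ ≤ spectralGap J ∧ spectralGap J ≤ 1 ∧
      mixingTime J ≤ (1 / κ) * Real.log (4 * (Fintype.card ι : ℝ) * Real.sqrt (Fintype.card ι)) ∧
      (1 / 2) * Real.log (κ * (Fintype.card ι : ℝ) / 16) ≤ mixingTime J :=
  ising_main J hsym hdiag hρ0 hρ hr hη hκdef hκ
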